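import Vale.Agent.P243C.Reduce
import Vale.Agent.P243D.Data

/-!
Assembly: an explicit finite covering of a tetrahedron by cylinders with directionwise relative area
`660821 / 1382400 < 1 / 2`.
-/

open MeasureTheory Vale.Agent.P243 Vale.Agent.P243C
open scoped ENNReal

namespace Vale.Agent.P243D

theorem inner_vec (a b c : ℝ) (x : E) :
    inner ℝ (!₂[a, b, c] : E) x = a * x 0 + b * x 1 + c * x 2 := by
  simp [PiLp.inner_apply, Fin.sum_univ_three]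
  ring

theorem tri_mem {a b c p : ℝ × ℝ} {α β γ D : ℝ} (hD : 0 < D) (hα : 0 ≤ α) (hβ : 0 ≤ β) (hγ : 0 ≤ γ)
    (hs : α + β + γ = D) (hx : α * a.1 + β * b.1 + γ * c.1 = D * p.1)
    (hy : α * a.2 + β * b.2 + γ * c.2 = D * p.2) : p ∈ tri a b c := by
  have hD' : D ≠ 0 := hD.ne'
  refine ⟨α / D, β / D, γ / D, by positivity, by positivity, by positivity, ?_, ?_⟩
  · field_simp
    linarith
  · ext
    · simp only
      field_simp
      linarith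
    · simp only
      field_simp
      linarith

/-- Vertices of the simplex. -/
noncomputable def V1 : E := !₂[1, 0, 0]
noncomputable def V2 : E := !₂[0, 1, 0]
noncomputable def V3 : E := !₂[0, 0, 1]
noncomputable def V4' : E := !₂[0, 0, 0]

theorem V1_mem : V1 ∈ K := by simp [K, V1]
theorem V2_mem : V2 ∈ K := by simp [K, V2]
theorem V3_mem : V3 ∈ K := by simp [K, V3]
theorem V4_mem : V4' ∈ K := by simp [K, V4']

theorem ratio_le {T S : Set (ℝ × ℝ)} {d : ℝ} (hT : volume T = ENNReal.ofReal (d / 2))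
    (hS : (1 / 2 : ℝ≥0∞) ≤ volume S) : volume T / volume S ≤ ENNReal.ofReal d := by
  calc volume T / volume S ≤ volume T / (1 / 2 : ℝ≥0∞) := ENNReal.div_le_div_left hS _
    _ = ENNReal.ofReal d := by
      rw [hT, ENNReal.div_eq_inv_mul]
      have h2 : ((1 / 2 : ℝ≥0∞))⁻¹ = ENNReal.ofReal 2 := by
        simp
      rw [h2, ← ENNReal.ofReal_mul (by norm_num)]
      congr 1
      ring

/-- Forms of direction 0. -/
noncomputable def F0 : E := !₂[(-1 : ℝ), (-1 : ℝ), (-1 : ℝ)]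
noncomputable def G0 : E := !₂[(1 : ℝ), (0 : ℝ), (0 : ℝ)]
noncomputable def C0 : ℝ × ℝ := ((1 : ℝ), (0 : ℝ))

theorem aff0 (x : E) : aff F0 G0 C0 x =
    ((-1 : ℝ) * x 0 + (-1 : ℝ) * x 1 + (-1 : ℝ) * x 2 + (1 : ℝ),
      (1 : ℝ) * x 0 + (0 : ℝ) * x 1 + (0 : ℝ) * x 2 + (0 : ℝ)) := by
  simp only [aff, F0, G0, C0, inner_vec]

theorem li0 : LinearIndependent ℝ ![F0, G0] := by
  rw [LinearIndependent.pair_iff]
  intro s t h
  have h0 := congrArg (fun v : E => v 0) h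
  have h1 := congrArg (fun v : E => v 1) h
  have h2 := congrArg (fun v : E => v 2) h
  simp [F0, G0] at h0 h1 h2
  constructor <;> linarith

theorem half0 : (1 / 2 : ℝ≥0∞) ≤ volume (aff F0 G0 C0 '' K) := by
  refine half_le_volume_image F0 G0 C0 (0 : ℝ) (0 : ℝ) (by norm_num) (by norm_num) (by norm_num)
    (by norm_num) V2 V4' V3 V1 V2_mem V4_mem V3_mem V1_mem ?_ ?_ ?_ ?_ <;>
  · rw [aff0]
    simp [V1, V2, V3, V4']
    try norm_num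

/-- Forms of direction 1. -/
noncomputable def F1 : E := !₂[(0 : ℝ), (0 : ℝ), (1 : ℝ)]
noncomputable def G1 : E := !₂[(0 : ℝ), (1 : ℝ), (0 : ℝ)]
noncomputable def C1 : ℝ × ℝ := ((0 : ℝ), (0 : ℝ))

theorem aff1 (x : E) : aff F1 G1 C1 x =
    ((0 : ℝ) * x 0 + (0 : ℝ) * x 1 + (1 : ℝ) * x 2 + (0 : ℝ),
      (0 : ℝ) * x 0 + (1 : ℝ) * x 1 + (0 : ℝ) * x 2 + (0 : ℝ)) := by
  simp only [aff, F1, G1, C1, inner_vec]

theorem li1 : LinearIndependent ℝ ![F1, G1] := by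
  rw [LinearIndependent.pair_iff]
  intro s t h
  have h0 := congrArg (fun v : E => v 0) h
  have h1 := congrArg (fun v : E => v 1) h
  have h2 := congrArg (fun v : E => v 2) h
  simp [F1, G1] at h0 h1 h2
  constructor <;> linarith

theorem half1 : (1 / 2 : ℝ≥0∞) ≤ volume (aff F1 G1 C1 '' K) := by
  refine half_le_volume_image F1 G1 C1 (0 : ℝ) (0 : ℝ) (by norm_num) (by norm_num) (by norm_num)
    (by norm_num) V1 V3 V4' V2 V1_mem V3_mem V4_mem V2_mem ?_ ?_ ?_ ?_ <;>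
  · rw [aff1]
    simp [V1, V2, V3, V4']
    try norm_num

/-- Forms of direction 2. -/
noncomputable def F2 : E := !₂[(-2 / 3 : ℝ), (1 / 3 : ℝ), (0 : ℝ)]
noncomputable def G2 : E := !₂[(-2 / 3 : ℝ), (-2 / 3 : ℝ), (-1 : ℝ)]
noncomputable def C2 : ℝ × ℝ := ((0 : ℝ), (2 / 3 : ℝ))

theorem aff2 (x : E) : aff F2 G2 C2 x =
    ((-2 / 3 : ℝ) * x 0 + (1 / 3 : ℝ) * x 1 + (0 : ℝ) * x 2 + (0 : ℝ),
      (-2 / 3 : ℝ) * x 0 + (-2 / 3 : ℝ) * x 1 + (-1 : ℝ) * x 2 + (2 / 3 : ℝ)) := by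
  simp only [aff, F2, G2, C2, inner_vec]

theorem li2 : LinearIndependent ℝ ![F2, G2] := by
  rw [LinearIndependent.pair_iff]
  intro s t h
  have h0 := congrArg (fun v : E => v 0) h
  have h1 := congrArg (fun v : E => v 1) h
  have h2 := congrArg (fun v : E => v 2) h
  simp [F2, G2] at h0 h1 h2
  constructor <;> linarith

theorem half2 : (1 / 2 : ℝ≥0∞) ≤ volume (aff F2 G2 C2 '' K) := by
  refine half_le_volume_image F2 G2 C2 (2 / 3 : ℝ) (1 / 3 : ℝ) (by norm_num) (by norm_num) (by norm_num)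
    (by norm_num) V1 V2 V3 V4' V1_mem V2_mem V3_mem V4_mem ?_ ?_ ?_ ?_ <;>
  · rw [aff2]
    simp [V1, V2, V3, V4']
    try norm_num

/-- Forms of direction 3. -/
noncomputable def F3 : E := !₂[(-1 / 3 : ℝ), (0 : ℝ), (2 / 3 : ℝ)]
noncomputable def G3 : E := !₂[(-1 / 3 : ℝ), (-1 : ℝ), (-1 / 3 : ℝ)]
noncomputable def C3 : ℝ × ℝ := ((0 : ℝ), (1 / 3 : ℝ))

theorem aff3 (x : E) : aff F3 G3 C3 x =
    ((-1 / 3 : ℝ) * x 0 + (0 : ℝ) * x 1 + (2 / 3 : ℝ) * x 2 + (0 : ℝ),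
      (-1 / 3 : ℝ) * x 0 + (-1 : ℝ) * x 1 + (-1 / 3 : ℝ) * x 2 + (1 / 3 : ℝ)) := by
  simp only [aff, F3, G3, C3, inner_vec]

theorem li3 : LinearIndependent ℝ ![F3, G3] := by
  rw [LinearIndependent.pair_iff]
  intro s t h
  have h0 := congrArg (fun v : E => v 0) h
  have h1 := congrArg (fun v : E => v 1) h
  have h2 := congrArg (fun v : E => v 2) h
  simp [F3, G3] at h0 h1 h2
  constructor <;> linarith

theorem half3 : (1 / 2 : ℝ≥0∞) ≤ volume (aff F3 G3 C3 '' K) := by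
  refine half_le_volume_image F3 G3 C3 (1 / 3 : ℝ) (2 / 3 : ℝ) (by norm_num) (by norm_num) (by norm_num)
    (by norm_num) V1 V3 V2 V4' V1_mem V3_mem V2_mem V4_mem ?_ ?_ ?_ ?_ <;>
  · rw [aff3]
    simp [V1, V2, V3, V4']
    try norm_num

/-- Forms of direction 4. -/
noncomputable def F4 : E := !₂[(-1 / 2 : ℝ), (1 / 2 : ℝ), (0 : ℝ)]
noncomputable def G4 : E := !₂[(-1 / 2 : ℝ), (-1 / 2 : ℝ), (-1 : ℝ)]
noncomputable def C4 : ℝ × ℝ := ((0 : ℝ), (1 / 2 : ℝ))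

theorem aff4 (x : E) : aff F4 G4 C4 x =
    ((-1 / 2 : ℝ) * x 0 + (1 / 2 : ℝ) * x 1 + (0 : ℝ) * x 2 + (0 : ℝ),
      (-1 / 2 : ℝ) * x 0 + (-1 / 2 : ℝ) * x 1 + (-1 : ℝ) * x 2 + (1 / 2 : ℝ)) := by
  simp only [aff, F4, G4, C4, inner_vec]

theorem li4 : LinearIndependent ℝ ![F4, G4] := by
  rw [LinearIndependent.pair_iff]
  intro s t h
  have h0 := congrArg (fun v : E => v 0) h
  have h1 := congrArg (fun v : E => v 1) h
  have h2 := congrArg (fun v : E => v 2) h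
  simp [F4, G4] at h0 h1 h2
  constructor <;> linarith

theorem half4 : (1 / 2 : ℝ≥0∞) ≤ volume (aff F4 G4 C4 '' K) := by
  refine half_le_volume_image F4 G4 C4 (1 / 2 : ℝ) (1 / 2 : ℝ) (by norm_num) (by norm_num) (by norm_num)
    (by norm_num) V1 V2 V3 V4' V1_mem V2_mem V3_mem V4_mem ?_ ?_ ?_ ?_ <;>
  · rw [aff4]
    simp [V1, V2, V3, V4']
    try norm_num

/-- Forms of direction 5. -/
noncomputable def F5 : E := !₂[(-1 / 2 : ℝ), (0 : ℝ), (1 / 2 : ℝ)]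
noncomputable def G5 : E := !₂[(-1 / 2 : ℝ), (-1 : ℝ), (-1 / 2 : ℝ)]
noncomputable def C5 : ℝ × ℝ := ((0 : ℝ), (1 / 2 : ℝ))

theorem aff5 (x : E) : aff F5 G5 C5 x =
    ((-1 / 2 : ℝ) * x 0 + (0 : ℝ) * x 1 + (1 / 2 : ℝ) * x 2 + (0 : ℝ),
      (-1 / 2 : ℝ) * x 0 + (-1 : ℝ) * x 1 + (-1 / 2 : ℝ) * x 2 + (1 / 2 : ℝ)) := by
  simp only [aff, F5, G5, C5, inner_vec]

theorem li5 : LinearIndependent ℝ ![F5, G5] := by
  rw [LinearIndependent.pair_iff]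
  intro s t h
  have h0 := congrArg (fun v : E => v 0) h
  have h1 := congrArg (fun v : E => v 1) h
  have h2 := congrArg (fun v : E => v 2) h
  simp [F5, G5] at h0 h1 h2
  constructor <;> linarith

theorem half5 : (1 / 2 : ℝ≥0∞) ≤ volume (aff F5 G5 C5 '' K) := by
  refine half_le_volume_image F5 G5 C5 (1 / 2 : ℝ) (1 / 2 : ℝ) (by norm_num) (by norm_num) (by norm_num)
    (by norm_num) V1 V3 V2 V4' V1_mem V3_mem V2_mem V4_mem ?_ ?_ ?_ ?_ <;>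
  · rw [aff5]
    simp [V1, V2, V3, V4']
    try norm_num

/-- Forms of direction 6. -/
noncomputable def F6 : E := !₂[(1 : ℝ), (0 : ℝ), (0 : ℝ)]
noncomputable def G6 : E := !₂[(-1 / 2 : ℝ), (-1 / 2 : ℝ), (-1 : ℝ)]
noncomputable def C6 : ℝ × ℝ := ((0 : ℝ), (1 / 2 : ℝ))

theorem aff6 (x : E) : aff F6 G6 C6 x =
    ((1 : ℝ) * x 0 + (0 : ℝ) * x 1 + (0 : ℝ) * x 2 + (0 : ℝ),
      (-1 / 2 : ℝ) * x 0 + (-1 / 2 : ℝ) * x 1 + (-1 : ℝ) * x 2 + (1 / 2 : ℝ)) := by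
  simp only [aff, F6, G6, C6, inner_vec]

theorem li6 : LinearIndependent ℝ ![F6, G6] := by
  rw [LinearIndependent.pair_iff]
  intro s t h
  have h0 := congrArg (fun v : E => v 0) h
  have h1 := congrArg (fun v : E => v 1) h
  have h2 := congrArg (fun v : E => v 2) h
  simp [F6, G6] at h0 h1 h2
  constructor <;> linarith

theorem half6 : (1 / 2 : ℝ≥0∞) ≤ volume (aff F6 G6 C6 '' K) := by
  refine half_le_volume_image F6 G6 C6 (0 : ℝ) (1 / 2 : ℝ) (by norm_num) (by norm_num) (by norm_num)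
    (by norm_num) V2 V1 V3 V4' V2_mem V1_mem V3_mem V4_mem ?_ ?_ ?_ ?_ <;>
  · rw [aff6]
    simp [V1, V2, V3, V4']
    try norm_num

/-- Forms of direction 7. -/
noncomputable def F7 : E := !₂[(0 : ℝ), (0 : ℝ), (1 : ℝ)]
noncomputable def G7 : E := !₂[(-1 / 2 : ℝ), (-1 : ℝ), (-1 / 2 : ℝ)]
noncomputable def C7 : ℝ × ℝ := ((0 : ℝ), (1 / 2 : ℝ))

theorem aff7 (x : E) : aff F7 G7 C7 x =
    ((0 : ℝ) * x 0 + (0 : ℝ) * x 1 + (1 : ℝ) * x 2 + (0 : ℝ),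
      (-1 / 2 : ℝ) * x 0 + (-1 : ℝ) * x 1 + (-1 / 2 : ℝ) * x 2 + (1 / 2 : ℝ)) := by
  simp only [aff, F7, G7, C7, inner_vec]

theorem li7 : LinearIndependent ℝ ![F7, G7] := by
  rw [LinearIndependent.pair_iff]
  intro s t h
  have h0 := congrArg (fun v : E => v 0) h
  have h1 := congrArg (fun v : E => v 1) h
  have h2 := congrArg (fun v : E => v 2) h
  simp [F7, G7] at h0 h1 h2
  constructor <;> linarith

theorem half7 : (1 / 2 : ℝ≥0∞) ≤ volume (aff F7 G7 C7 '' K) := by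
  refine half_le_volume_image F7 G7 C7 (0 : ℝ) (1 / 2 : ℝ) (by norm_num) (by norm_num) (by norm_num)
    (by norm_num) V1 V3 V2 V4' V1_mem V3_mem V2_mem V4_mem ?_ ?_ ?_ ?_ <;>
  · rw [aff7]
    simp [V1, V2, V3, V4']
    try norm_num

/-- Forms of direction 8. -/
noncomputable def F8 : E := !₂[(-1 : ℝ), (-1 : ℝ), (-1 : ℝ)]
noncomputable def G8 : E := !₂[(-1 / 2 : ℝ), (1 / 2 : ℝ), (0 : ℝ)]
noncomputable def C8 : ℝ × ℝ := ((1 : ℝ), (0 : ℝ))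

theorem aff8 (x : E) : aff F8 G8 C8 x =
    ((-1 : ℝ) * x 0 + (-1 : ℝ) * x 1 + (-1 : ℝ) * x 2 + (1 : ℝ),
      (-1 / 2 : ℝ) * x 0 + (1 / 2 : ℝ) * x 1 + (0 : ℝ) * x 2 + (0 : ℝ)) := by
  simp only [aff, F8, G8, C8, inner_vec]

theorem li8 : LinearIndependent ℝ ![F8, G8] := by
  rw [LinearIndependent.pair_iff]
  intro s t h
  have h0 := congrArg (fun v : E => v 0) h
  have h1 := congrArg (fun v : E => v 1) h
  have h2 := congrArg (fun v : E => v 2) h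
  simp [F8, G8] at h0 h1 h2
  constructor <;> linarith

theorem half8 : (1 / 2 : ℝ≥0∞) ≤ volume (aff F8 G8 C8 '' K) := by
  refine half_le_volume_image F8 G8 C8 (0 : ℝ) (1 / 2 : ℝ) (by norm_num) (by norm_num) (by norm_num)
    (by norm_num) V3 V4' V1 V2 V3_mem V4_mem V1_mem V2_mem ?_ ?_ ?_ ?_ <;>
  · rw [aff8]
    simp [V1, V2, V3, V4']
    try norm_num

/-- Forms of direction 9. -/
noncomputable def F9 : E := !₂[(0 : ℝ), (1 : ℝ), (0 : ℝ)]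
noncomputable def G9 : E := !₂[(-1 / 2 : ℝ), (0 : ℝ), (1 / 2 : ℝ)]
noncomputable def C9 : ℝ × ℝ := ((0 : ℝ), (0 : ℝ))

theorem aff9 (x : E) : aff F9 G9 C9 x =
    ((0 : ℝ) * x 0 + (1 : ℝ) * x 1 + (0 : ℝ) * x 2 + (0 : ℝ),
      (-1 / 2 : ℝ) * x 0 + (0 : ℝ) * x 1 + (1 / 2 : ℝ) * x 2 + (0 : ℝ)) := by
  simp only [aff, F9, G9, C9, inner_vec]

theorem li9 : LinearIndependent ℝ ![F9, G9] := by
  rw [LinearIndependent.pair_iff]
  intro s t h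
  have h0 := congrArg (fun v : E => v 0) h
  have h1 := congrArg (fun v : E => v 1) h
  have h2 := congrArg (fun v : E => v 2) h
  simp [F9, G9] at h0 h1 h2
  constructor <;> linarith

theorem half9 : (1 / 2 : ℝ≥0∞) ≤ volume (aff F9 G9 C9 '' K) := by
  refine half_le_volume_image F9 G9 C9 (0 : ℝ) (1 / 2 : ℝ) (by norm_num) (by norm_num) (by norm_num)
    (by norm_num) V4' V2 V1 V3 V4_mem V2_mem V1_mem V3_mem ?_ ?_ ?_ ?_ <;>
  · rw [aff9]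
    simp [V1, V2, V3, V4']
    try norm_num

theorem mem0 (x : E)
    (h : ∀ f ∈ forms 0, 0 ≤ f.ev (x 0) (x 1) (x 2) (1 - x 0 - x 1 - x 2)) :
    aff F0 G0 C0 x ∈ tri ((0 : ℝ), (0 : ℝ)) ((41 / 160 : ℝ), (0 : ℝ)) ((0 : ℝ), (41 / 160 : ℝ)) := by
  have h' : ∀ f ∈ [(⟨-4879, 1681, 1681, -4879⟩ : V4), ⟨0, 0, 0, 6560⟩, ⟨6560, 0, 0, 0⟩],
      0 ≤ f.ev (x 0) (x 1) (x 2) (1 - x 0 - x 1 - x 2) := h
  have h1 := h' _ (List.Mem.head _)
  have h2 := h' _ (List.Mem.tail _ (List.Mem.head _))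
  have h3 := h' _ (List.Mem.tail _ (List.Mem.tail _ (List.Mem.head _)))
  rw [aff0]
  refine tri_mem (D := 1681) (by norm_num) h1 h2 h3 ?_ ?_ ?_ <;>
  · simp only [V4.ev]
    push_cast
    ring

theorem volT0 : volume (tri ((0 : ℝ), (0 : ℝ)) ((41 / 160 : ℝ), (0 : ℝ)) ((0 : ℝ), (41 / 160 : ℝ))) = ENNReal.ofReal ((1681 / 25600 : ℝ) / 2) := by
  rw [volume_tri]
  congr 2
  rw [det2]
  norm_num [abs_of_pos]

theorem mem1 (x : E)
    (h : ∀ f ∈ forms 1, 0 ≤ f.ev (x 0) (x 1) (x 2) (1 - x 0 - x 1 - x 2)) :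
    aff F1 G1 C1 x ∈ tri ((0 : ℝ), (0 : ℝ)) ((41 / 160 : ℝ), (0 : ℝ)) ((0 : ℝ), (41 / 160 : ℝ)) := by
  have h' : ∀ f ∈ [(⟨1681, -4879, -4879, 1681⟩ : V4), ⟨0, 0, 6560, 0⟩, ⟨0, 6560, 0, 0⟩],
      0 ≤ f.ev (x 0) (x 1) (x 2) (1 - x 0 - x 1 - x 2) := h
  have h1 := h' _ (List.Mem.head _)
  have h2 := h' _ (List.Mem.tail _ (List.Mem.head _))
  have h3 := h' _ (List.Mem.tail _ (List.Mem.tail _ (List.Mem.head _)))
  rw [aff1]
  refine tri_mem (D := 1681) (by norm_num) h1 h2 h3 ?_ ?_ ?_ <;>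
  · simp only [V4.ev]
    push_cast
    ring

theorem volT1 : volume (tri ((0 : ℝ), (0 : ℝ)) ((41 / 160 : ℝ), (0 : ℝ)) ((0 : ℝ), (41 / 160 : ℝ))) = ENNReal.ofReal ((1681 / 25600 : ℝ) / 2) := by
  rw [volume_tri]
  congr 2
  rw [det2]
  norm_num [abs_of_pos]

theorem mem2 (x : E)
    (h : ∀ f ∈ forms 2, 0 ≤ f.ev (x 0) (x 1) (x 2) (1 - x 0 - x 1 - x 2)) :
    aff F2 G2 C2 x ∈ tri ((95 / 576 : ℝ), (253 / 2880 : ℝ)) ((29 / 960 : ℝ), (149 / 960 : ℝ)) ((-149 / 960 : ℝ), (-29 / 960 : ℝ)) := by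
  have h' : ∀ f ∈ [(⟨-138840, 117480, 117480, -138840⟩ : V4), ⟨96839, -66361, -159481, 283079⟩, ⟨93799, 679, 93799, -92441⟩],
      0 ≤ f.ev (x 0) (x 1) (x 2) (1 - x 0 - x 1 - x 2) := h
  have h1 := h' _ (List.Mem.head _)
  have h2 := h' _ (List.Mem.tail _ (List.Mem.head _))
  have h3 := h' _ (List.Mem.tail _ (List.Mem.tail _ (List.Mem.head _)))
  rw [aff2]
  refine tri_mem (D := 51798) (by norm_num) h1 h2 h3 ?_ ?_ ?_ <;>
  · simp only [V4.ev]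
    push_cast
    ring

theorem volT2 : volume (tri ((95 / 576 : ℝ), (253 / 2880 : ℝ)) ((29 / 960 : ℝ), (149 / 960 : ℝ)) ((-149 / 960 : ℝ), (-29 / 960 : ℝ))) = ENNReal.ofReal ((8633 / 230400 : ℝ) / 2) := by
  rw [volume_tri]
  congr 2
  rw [det2]
  norm_num [abs_of_pos]

theorem mem3 (x : E)
    (h : ∀ f ∈ forms 3, 0 ≤ f.ev (x 0) (x 1) (x 2) (1 - x 0 - x 1 - x 2)) :
    aff F2 G2 C2 x ∈ tri ((95 / 576 : ℝ), (253 / 2880 : ℝ)) ((-149 / 960 : ℝ), (-29 / 960 : ℝ)) ((-253 / 2880 : ℝ), (-95 / 576 : ℝ)) := by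
  have h' : ∀ f ∈ [(⟨-92441, 93799, 679, 93799⟩ : V4), ⟨259896, -89544, -89544, 259896⟩, ⟨-96839, 66361, 159481, -283079⟩],
      0 ≤ f.ev (x 0) (x 1) (x 2) (1 - x 0 - x 1 - x 2) := h
  have h1 := h' _ (List.Mem.head _)
  have h2 := h' _ (List.Mem.tail _ (List.Mem.head _))
  have h3 := h' _ (List.Mem.tail _ (List.Mem.tail _ (List.Mem.head _)))
  rw [aff2]
  refine tri_mem (D := 70616) (by norm_num) h1 h2 h3 ?_ ?_ ?_ <;>
  · simp only [V4.ev]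
    push_cast
    ring

theorem volT3 : volume (tri ((95 / 576 : ℝ), (253 / 2880 : ℝ)) ((-149 / 960 : ℝ), (-29 / 960 : ℝ)) ((-253 / 2880 : ℝ), (-95 / 576 : ℝ))) = ENNReal.ofReal ((8827 / 172800 : ℝ) / 2) := by
  rw [volume_tri]
  congr 2
  rw [det2]
  norm_num [abs_of_pos]

theorem mem4 (x : E)
    (h : ∀ f ∈ forms 4, 0 ≤ f.ev (x 0) (x 1) (x 2) (1 - x 0 - x 1 - x 2)) :
    aff F3 G3 C3 x ∈ tri ((-95 / 576 : ℝ), (-253 / 2880 : ℝ)) ((-29 / 960 : ℝ), (-149 / 960 : ℝ)) ((149 / 960 : ℝ), (29 / 960 : ℝ)) := by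
  have h' : ∀ f ∈ [(⟨117480, -138840, -138840, 117480⟩ : V4), ⟨-66361, 283079, 96839, -159481⟩, ⟨679, -92441, 93799, 93799⟩],
      0 ≤ f.ev (x 0) (x 1) (x 2) (1 - x 0 - x 1 - x 2) := h
  have h1 := h' _ (List.Mem.head _)
  have h2 := h' _ (List.Mem.tail _ (List.Mem.head _))
  have h3 := h' _ (List.Mem.tail _ (List.Mem.tail _ (List.Mem.head _)))
  rw [aff3]
  refine tri_mem (D := 51798) (by norm_num) h1 h2 h3 ?_ ?_ ?_ <;>
  · simp only [V4.ev]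
    push_cast
    ring

theorem volT4 : volume (tri ((-95 / 576 : ℝ), (-253 / 2880 : ℝ)) ((-29 / 960 : ℝ), (-149 / 960 : ℝ)) ((149 / 960 : ℝ), (29 / 960 : ℝ))) = ENNReal.ofReal ((8633 / 230400 : ℝ) / 2) := by
  rw [volume_tri]
  congr 2
  rw [det2]
  norm_num [abs_of_pos]

theorem mem5 (x : E)
    (h : ∀ f ∈ forms 5, 0 ≤ f.ev (x 0) (x 1) (x 2) (1 - x 0 - x 1 - x 2)) :
    aff F3 G3 C3 x ∈ tri ((-95 / 576 : ℝ), (-253 / 2880 : ℝ)) ((149 / 960 : ℝ), (29 / 960 : ℝ)) ((253 / 2880 : ℝ), (95 / 576 : ℝ)) := by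
  have h' : ∀ f ∈ [(⟨93799, 93799, -92441, 679⟩ : V4), ⟨-89544, 259896, 259896, -89544⟩, ⟨66361, -283079, -96839, 159481⟩],
      0 ≤ f.ev (x 0) (x 1) (x 2) (1 - x 0 - x 1 - x 2) := h
  have h1 := h' _ (List.Mem.head _)
  have h2 := h' _ (List.Mem.tail _ (List.Mem.head _))
  have h3 := h' _ (List.Mem.tail _ (List.Mem.tail _ (List.Mem.head _)))
  rw [aff3]
  refine tri_mem (D := 70616) (by norm_num) h1 h2 h3 ?_ ?_ ?_ <;>
  · simp only [V4.ev]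
    push_cast
    ring

theorem volT5 : volume (tri ((-95 / 576 : ℝ), (-253 / 2880 : ℝ)) ((149 / 960 : ℝ), (29 / 960 : ℝ)) ((253 / 2880 : ℝ), (95 / 576 : ℝ))) = ENNReal.ofReal ((8827 / 172800 : ℝ) / 2) := by
  rw [volume_tri]
  congr 2
  rw [det2]
  norm_num [abs_of_pos]

theorem mem6 (x : E)
    (h : ∀ f ∈ forms 6, 0 ≤ f.ev (x 0) (x 1) (x 2) (1 - x 0 - x 1 - x 2)) :
    aff F4 G4 C4 x ∈ tri ((217 / 1920 : ℝ), (137 / 1920 : ℝ)) ((97 / 1920 : ℝ), (97 / 1920 : ℝ)) ((-97 / 1920 : ℝ), (-97 / 1920 : ℝ)) := by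
  have h' : ∀ f ∈ [(⟨-2328, 2328, 2328, -2328⟩ : V4), ⟨2905, -2711, -3671, 3865⟩, ⟨-383, 577, 1537, -1343⟩],
      0 ≤ f.ev (x 0) (x 1) (x 2) (1 - x 0 - x 1 - x 2) := h
  have h1 := h' _ (List.Mem.head _)
  have h2 := h' _ (List.Mem.tail _ (List.Mem.head _))
  have h3 := h' _ (List.Mem.tail _ (List.Mem.tail _ (List.Mem.head _)))
  rw [aff4]
  refine tri_mem (D := 194) (by norm_num) h1 h2 h3 ?_ ?_ ?_ <;>
  · simp only [V4.ev]
    push_cast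
    ring

theorem volT6 : volume (tri ((217 / 1920 : ℝ), (137 / 1920 : ℝ)) ((97 / 1920 : ℝ), (97 / 1920 : ℝ)) ((-97 / 1920 : ℝ), (-97 / 1920 : ℝ))) = ENNReal.ofReal ((97 / 23040 : ℝ) / 2) := by
  rw [volume_tri]
  congr 2
  rw [det2]
  norm_num [abs_of_pos]

theorem mem7 (x : E)
    (h : ∀ f ∈ forms 7, 0 ≤ f.ev (x 0) (x 1) (x 2) (1 - x 0 - x 1 - x 2)) :
    aff F4 G4 C4 x ∈ tri ((217 / 1920 : ℝ), (137 / 1920 : ℝ)) ((-97 / 1920 : ℝ), (-97 / 1920 : ℝ)) ((-137 / 1920 : ℝ), (-217 / 1920 : ℝ)) := by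
  have h' : ∀ f ∈ [(⟨-1343, 1537, 577, -383⟩ : V4), ⟨4602, -3894, -3894, 4602⟩, ⟨-2905, 2711, 3671, -3865⟩],
      0 ≤ f.ev (x 0) (x 1) (x 2) (1 - x 0 - x 1 - x 2) := h
  have h1 := h' _ (List.Mem.head _)
  have h2 := h' _ (List.Mem.tail _ (List.Mem.head _))
  have h3 := h' _ (List.Mem.tail _ (List.Mem.tail _ (List.Mem.head _)))
  rw [aff4]
  refine tri_mem (D := 354) (by norm_num) h1 h2 h3 ?_ ?_ ?_ <;>
  · simp only [V4.ev]
    push_cast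
    ring

theorem volT7 : volume (tri ((217 / 1920 : ℝ), (137 / 1920 : ℝ)) ((-97 / 1920 : ℝ), (-97 / 1920 : ℝ)) ((-137 / 1920 : ℝ), (-217 / 1920 : ℝ))) = ENNReal.ofReal ((59 / 7680 : ℝ) / 2) := by
  rw [volume_tri]
  congr 2
  rw [det2]
  norm_num [abs_of_pos]

theorem mem8 (x : E)
    (h : ∀ f ∈ forms 8, 0 ≤ f.ev (x 0) (x 1) (x 2) (1 - x 0 - x 1 - x 2)) :
    aff F5 G5 C5 x ∈ tri ((-217 / 1920 : ℝ), (-137 / 1920 : ℝ)) ((-97 / 1920 : ℝ), (-97 / 1920 : ℝ)) ((97 / 1920 : ℝ), (97 / 1920 : ℝ)) := by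
  have h' : ∀ f ∈ [(⟨2328, -2328, -2328, 2328⟩ : V4), ⟨-2711, 3865, 2905, -3671⟩, ⟨577, -1343, -383, 1537⟩],
      0 ≤ f.ev (x 0) (x 1) (x 2) (1 - x 0 - x 1 - x 2) := h
  have h1 := h' _ (List.Mem.head _)
  have h2 := h' _ (List.Mem.tail _ (List.Mem.head _))
  have h3 := h' _ (List.Mem.tail _ (List.Mem.tail _ (List.Mem.head _)))
  rw [aff5]
  refine tri_mem (D := 194) (by norm_num) h1 h2 h3 ?_ ?_ ?_ <;>
  · simp only [V4.ev]
    push_cast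
    ring

theorem volT8 : volume (tri ((-217 / 1920 : ℝ), (-137 / 1920 : ℝ)) ((-97 / 1920 : ℝ), (-97 / 1920 : ℝ)) ((97 / 1920 : ℝ), (97 / 1920 : ℝ))) = ENNReal.ofReal ((97 / 23040 : ℝ) / 2) := by
  rw [volume_tri]
  congr 2
  rw [det2]
  norm_num [abs_of_pos]

theorem mem9 (x : E)
    (h : ∀ f ∈ forms 9, 0 ≤ f.ev (x 0) (x 1) (x 2) (1 - x 0 - x 1 - x 2)) :
    aff F5 G5 C5 x ∈ tri ((-217 / 1920 : ℝ), (-137 / 1920 : ℝ)) ((97 / 1920 : ℝ), (97 / 1920 : ℝ)) ((137 / 1920 : ℝ), (217 / 1920 : ℝ)) := by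
  have h' : ∀ f ∈ [(⟨1537, -383, -1343, 577⟩ : V4), ⟨-3894, 4602, 4602, -3894⟩, ⟨2711, -3865, -2905, 3671⟩],
      0 ≤ f.ev (x 0) (x 1) (x 2) (1 - x 0 - x 1 - x 2) := h
  have h1 := h' _ (List.Mem.head _)
  have h2 := h' _ (List.Mem.tail _ (List.Mem.head _))
  have h3 := h' _ (List.Mem.tail _ (List.Mem.tail _ (List.Mem.head _)))
  rw [aff5]
  refine tri_mem (D := 354) (by norm_num) h1 h2 h3 ?_ ?_ ?_ <;>
  · simp only [V4.ev]
    push_cast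
    ring

theorem volT9 : volume (tri ((-217 / 1920 : ℝ), (-137 / 1920 : ℝ)) ((97 / 1920 : ℝ), (97 / 1920 : ℝ)) ((137 / 1920 : ℝ), (217 / 1920 : ℝ))) = ENNReal.ofReal ((59 / 7680 : ℝ) / 2) := by
  rw [volume_tri]
  congr 2
  rw [det2]
  norm_num [abs_of_pos]

theorem mem10 (x : E)
    (h : ∀ f ∈ forms 10, 0 ≤ f.ev (x 0) (x 1) (x 2) (1 - x 0 - x 1 - x 2)) :
    aff F4 G4 C4 x ∈ tri ((97 / 1920 : ℝ), (97 / 1920 : ℝ)) ((-11 / 640 : ℝ), (97 / 1920 : ℝ)) ((-97 / 1920 : ℝ), (11 / 640 : ℝ)) := by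
  have h' : ∀ f ∈ [(⟨-5312, 6976, 6976, -5312⟩ : V4), ⟨4883, -7405, -19885, 17363⟩, ⟨1261, 1261, 13741, -11219⟩],
      0 ≤ f.ev (x 0) (x 1) (x 2) (1 - x 0 - x 1 - x 2) := h
  have h1 := h' _ (List.Mem.head _)
  have h2 := h' _ (List.Mem.tail _ (List.Mem.head _))
  have h3 := h' _ (List.Mem.tail _ (List.Mem.tail _ (List.Mem.head _)))
  rw [aff4]
  refine tri_mem (D := 832) (by norm_num) h1 h2 h3 ?_ ?_ ?_ <;>
  · simp only [V4.ev]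
    push_cast
    ring

theorem volT10 : volume (tri ((97 / 1920 : ℝ), (97 / 1920 : ℝ)) ((-11 / 640 : ℝ), (97 / 1920 : ℝ)) ((-97 / 1920 : ℝ), (11 / 640 : ℝ))) = ENNReal.ofReal ((13 / 5760 : ℝ) / 2) := by
  rw [volume_tri]
  congr 2
  rw [det2]
  norm_num [abs_of_pos]

theorem mem11 (x : E)
    (h : ∀ f ∈ forms 11, 0 ≤ f.ev (x 0) (x 1) (x 2) (1 - x 0 - x 1 - x 2)) :
    aff F4 G4 C4 x ∈ tri ((97 / 1920 : ℝ), (97 / 1920 : ℝ)) ((-97 / 1920 : ℝ), (11 / 640 : ℝ)) ((-97 / 1920 : ℝ), (-97 / 1920 : ℝ)) := by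
  have h' : ∀ f ∈ [(⟨-11219, 13741, 1261, 1261⟩ : V4), ⟨18624, -18624, -18624, 18624⟩, ⟨-4883, 7405, 19885, -17363⟩],
      0 ≤ f.ev (x 0) (x 1) (x 2) (1 - x 0 - x 1 - x 2) := h
  have h1 := h' _ (List.Mem.head _)
  have h2 := h' _ (List.Mem.tail _ (List.Mem.head _))
  have h3 := h' _ (List.Mem.tail _ (List.Mem.tail _ (List.Mem.head _)))
  rw [aff4]
  refine tri_mem (D := 2522) (by norm_num) h1 h2 h3 ?_ ?_ ?_ <;>
  · simp only [V4.ev]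
    push_cast
    ring

theorem volT11 : volume (tri ((97 / 1920 : ℝ), (97 / 1920 : ℝ)) ((-97 / 1920 : ℝ), (11 / 640 : ℝ)) ((-97 / 1920 : ℝ), (-97 / 1920 : ℝ))) = ENNReal.ofReal ((1261 / 184320 : ℝ) / 2) := by
  rw [volume_tri]
  congr 2
  rw [det2]
  norm_num [abs_of_pos]

theorem mem12 (x : E)
    (h : ∀ f ∈ forms 12, 0 ≤ f.ev (x 0) (x 1) (x 2) (1 - x 0 - x 1 - x 2)) :
    aff F5 G5 C5 x ∈ tri ((-97 / 1920 : ℝ), (-97 / 1920 : ℝ)) ((11 / 640 : ℝ), (-97 / 1920 : ℝ)) ((97 / 1920 : ℝ), (-11 / 640 : ℝ)) := by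
  have h' : ∀ f ∈ [(⟨6976, -5312, -5312, 6976⟩ : V4), ⟨-7405, 17363, 4883, -19885⟩, ⟨1261, -11219, 1261, 13741⟩],
      0 ≤ f.ev (x 0) (x 1) (x 2) (1 - x 0 - x 1 - x 2) := h
  have h1 := h' _ (List.Mem.head _)
  have h2 := h' _ (List.Mem.tail _ (List.Mem.head _))
  have h3 := h' _ (List.Mem.tail _ (List.Mem.tail _ (List.Mem.head _)))
  rw [aff5]
  refine tri_mem (D := 832) (by norm_num) h1 h2 h3 ?_ ?_ ?_ <;>
  · simp only [V4.ev]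
    push_cast
    ring

theorem volT12 : volume (tri ((-97 / 1920 : ℝ), (-97 / 1920 : ℝ)) ((11 / 640 : ℝ), (-97 / 1920 : ℝ)) ((97 / 1920 : ℝ), (-11 / 640 : ℝ))) = ENNReal.ofReal ((13 / 5760 : ℝ) / 2) := by
  rw [volume_tri]
  congr 2
  rw [det2]
  norm_num [abs_of_pos]

theorem mem13 (x : E)
    (h : ∀ f ∈ forms 13, 0 ≤ f.ev (x 0) (x 1) (x 2) (1 - x 0 - x 1 - x 2)) :
    aff F5 G5 C5 x ∈ tri ((-97 / 1920 : ℝ), (-97 / 1920 : ℝ)) ((97 / 1920 : ℝ), (-11 / 640 : ℝ)) ((97 / 1920 : ℝ), (97 / 1920 : ℝ)) := by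
  have h' : ∀ f ∈ [(⟨13741, 1261, -11219, 1261⟩ : V4), ⟨-18624, 18624, 18624, -18624⟩, ⟨7405, -17363, -4883, 19885⟩],
      0 ≤ f.ev (x 0) (x 1) (x 2) (1 - x 0 - x 1 - x 2) := h
  have h1 := h' _ (List.Mem.head _)
  have h2 := h' _ (List.Mem.tail _ (List.Mem.head _))
  have h3 := h' _ (List.Mem.tail _ (List.Mem.tail _ (List.Mem.head _)))
  rw [aff5]
  refine tri_mem (D := 2522) (by norm_num) h1 h2 h3 ?_ ?_ ?_ <;>
  · simp only [V4.ev]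
    push_cast
    ring

theorem volT13 : volume (tri ((-97 / 1920 : ℝ), (-97 / 1920 : ℝ)) ((97 / 1920 : ℝ), (-11 / 640 : ℝ)) ((97 / 1920 : ℝ), (97 / 1920 : ℝ))) = ENNReal.ofReal ((1261 / 184320 : ℝ) / 2) := by
  rw [volume_tri]
  congr 2
  rw [det2]
  norm_num [abs_of_pos]

theorem mem14 (x : E)
    (h : ∀ f ∈ forms 14, 0 ≤ f.ev (x 0) (x 1) (x 2) (1 - x 0 - x 1 - x 2)) :
    aff F6 G6 C6 x ∈ tri ((0 : ℝ), (7 / 1920 : ℝ)) ((37 / 960 : ℝ), (103 / 640 : ℝ)) ((0 : ℝ), (7 / 32 : ℝ)) := by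
  have h' : ∀ f ∈ [(⟨-91020, 15540, 51060, -19980⟩ : V4), ⟨396480, 0, 0, 0⟩, ⟨-290179, -259, -35779, 35261⟩],
      0 ≤ f.ev (x 0) (x 1) (x 2) (1 - x 0 - x 1 - x 2) := h
  have h1 := h' _ (List.Mem.head _)
  have h2 := h' _ (List.Mem.tail _ (List.Mem.head _))
  have h3 := h' _ (List.Mem.tail _ (List.Mem.tail _ (List.Mem.head _)))
  rw [aff6]
  refine tri_mem (D := 15281) (by norm_num) h1 h2 h3 ?_ ?_ ?_ <;>
  · simp only [V4.ev]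
    push_cast
    ring

theorem volT14 : volume (tri ((0 : ℝ), (7 / 1920 : ℝ)) ((37 / 960 : ℝ), (103 / 640 : ℝ)) ((0 : ℝ), (7 / 32 : ℝ))) = ENNReal.ofReal ((15281 / 1843200 : ℝ) / 2) := by
  rw [volume_tri]
  congr 2
  rw [det2]
  norm_num [abs_of_pos]

theorem mem15 (x : E)
    (h : ∀ f ∈ forms 15, 0 ≤ f.ev (x 0) (x 1) (x 2) (1 - x 0 - x 1 - x 2)) :
    aff F6 G6 C6 x ∈ tri ((0 : ℝ), (7 / 1920 : ℝ)) ((37 / 960 : ℝ), (11 / 480 : ℝ)) ((37 / 960 : ℝ), (103 / 640 : ℝ)) := by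
  have h' : ∀ f ∈ [(⟨-244595, 9805, 9805, 9805⟩ : V4), ⟨290179, 259, 35779, -35261⟩, ⟨-35779, -259, -35779, 35261⟩],
      0 ≤ f.ev (x 0) (x 1) (x 2) (1 - x 0 - x 1 - x 2) := h
  have h1 := h' _ (List.Mem.head _)
  have h2 := h' _ (List.Mem.tail _ (List.Mem.head _))
  have h3 := h' _ (List.Mem.tail _ (List.Mem.tail _ (List.Mem.head _)))
  rw [aff6]
  refine tri_mem (D := 9805) (by norm_num) h1 h2 h3 ?_ ?_ ?_ <;>
  · simp only [V4.ev]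
    push_cast
    ring

theorem volT15 : volume (tri ((0 : ℝ), (7 / 1920 : ℝ)) ((37 / 960 : ℝ), (11 / 480 : ℝ)) ((37 / 960 : ℝ), (103 / 640 : ℝ))) = ENNReal.ofReal ((1961 / 368640 : ℝ) / 2) := by
  rw [volume_tri]
  congr 2
  rw [det2]
  norm_num [abs_of_pos]

theorem mem16 (x : E)
    (h : ∀ f ∈ forms 16, 0 ≤ f.ev (x 0) (x 1) (x 2) (1 - x 0 - x 1 - x 2)) :
    aff F7 G7 C7 x ∈ tri ((0 : ℝ), (-7 / 1920 : ℝ)) ((0 : ℝ), (-7 / 32 : ℝ)) ((37 / 960 : ℝ), (-103 / 640 : ℝ)) := by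
  have h' : ∀ f ∈ [(⟨15540, -19980, -91020, 51060⟩ : V4), ⟨-259, 35261, -290179, -35779⟩, ⟨0, 0, 396480, 0⟩],
      0 ≤ f.ev (x 0) (x 1) (x 2) (1 - x 0 - x 1 - x 2) := h
  have h1 := h' _ (List.Mem.head _)
  have h2 := h' _ (List.Mem.tail _ (List.Mem.head _))
  have h3 := h' _ (List.Mem.tail _ (List.Mem.tail _ (List.Mem.head _)))
  rw [aff7]
  refine tri_mem (D := 15281) (by norm_num) h1 h2 h3 ?_ ?_ ?_ <;>
  · simp only [V4.ev]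
    push_cast
    ring

theorem volT16 : volume (tri ((0 : ℝ), (-7 / 1920 : ℝ)) ((0 : ℝ), (-7 / 32 : ℝ)) ((37 / 960 : ℝ), (-103 / 640 : ℝ))) = ENNReal.ofReal ((15281 / 1843200 : ℝ) / 2) := by
  rw [volume_tri]
  congr 2
  rw [det2]
  norm_num [abs_of_pos]

theorem mem17 (x : E)
    (h : ∀ f ∈ forms 17, 0 ≤ f.ev (x 0) (x 1) (x 2) (1 - x 0 - x 1 - x 2)) :
    aff F7 G7 C7 x ∈ tri ((0 : ℝ), (-7 / 1920 : ℝ)) ((37 / 960 : ℝ), (-103 / 640 : ℝ)) ((37 / 960 : ℝ), (-11 / 480 : ℝ)) := by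
  have h' : ∀ f ∈ [(⟨9805, 9805, -244595, 9805⟩ : V4), ⟨-259, 35261, -35779, -35779⟩, ⟨259, -35261, 290179, 35779⟩],
      0 ≤ f.ev (x 0) (x 1) (x 2) (1 - x 0 - x 1 - x 2) := h
  have h1 := h' _ (List.Mem.head _)
  have h2 := h' _ (List.Mem.tail _ (List.Mem.head _))
  have h3 := h' _ (List.Mem.tail _ (List.Mem.tail _ (List.Mem.head _)))
  rw [aff7]
  refine tri_mem (D := 9805) (by norm_num) h1 h2 h3 ?_ ?_ ?_ <;>
  · simp only [V4.ev]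
    push_cast
    ring

theorem volT17 : volume (tri ((0 : ℝ), (-7 / 1920 : ℝ)) ((37 / 960 : ℝ), (-103 / 640 : ℝ)) ((37 / 960 : ℝ), (-11 / 480 : ℝ))) = ENNReal.ofReal ((1961 / 368640 : ℝ) / 2) := by
  rw [volume_tri]
  congr 2
  rw [det2]
  norm_num [abs_of_pos]

theorem mem18 (x : E)
    (h : ∀ f ∈ forms 18, 0 ≤ f.ev (x 0) (x 1) (x 2) (1 - x 0 - x 1 - x 2)) :
    aff F8 G8 C8 x ∈ tri ((0 : ℝ), (-7 / 1920 : ℝ)) ((0 : ℝ), (-7 / 32 : ℝ)) ((37 / 960 : ℝ), (-103 / 640 : ℝ)) := by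
  have h' : ∀ f ∈ [(⟨-19980, 51060, 15540, -91020⟩ : V4), ⟨35261, -35779, -259, -290179⟩, ⟨0, 0, 0, 396480⟩],
      0 ≤ f.ev (x 0) (x 1) (x 2) (1 - x 0 - x 1 - x 2) := h
  have h1 := h' _ (List.Mem.head _)
  have h2 := h' _ (List.Mem.tail _ (List.Mem.head _))
  have h3 := h' _ (List.Mem.tail _ (List.Mem.tail _ (List.Mem.head _)))
  rw [aff8]
  refine tri_mem (D := 15281) (by norm_num) h1 h2 h3 ?_ ?_ ?_ <;>
  · simp only [V4.ev]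
    push_cast
    ring

theorem volT18 : volume (tri ((0 : ℝ), (-7 / 1920 : ℝ)) ((0 : ℝ), (-7 / 32 : ℝ)) ((37 / 960 : ℝ), (-103 / 640 : ℝ))) = ENNReal.ofReal ((15281 / 1843200 : ℝ) / 2) := by
  rw [volume_tri]
  congr 2
  rw [det2]
  norm_num [abs_of_pos]

theorem mem19 (x : E)
    (h : ∀ f ∈ forms 19, 0 ≤ f.ev (x 0) (x 1) (x 2) (1 - x 0 - x 1 - x 2)) :
    aff F8 G8 C8 x ∈ tri ((0 : ℝ), (-7 / 1920 : ℝ)) ((37 / 960 : ℝ), (-103 / 640 : ℝ)) ((37 / 960 : ℝ), (-11 / 480 : ℝ)) := by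
  have h' : ∀ f ∈ [(⟨9805, 9805, 9805, -244595⟩ : V4), ⟨35261, -35779, -259, -35779⟩, ⟨-35261, 35779, 259, 290179⟩],
      0 ≤ f.ev (x 0) (x 1) (x 2) (1 - x 0 - x 1 - x 2) := h
  have h1 := h' _ (List.Mem.head _)
  have h2 := h' _ (List.Mem.tail _ (List.Mem.head _))
  have h3 := h' _ (List.Mem.tail _ (List.Mem.tail _ (List.Mem.head _)))
  rw [aff8]
  refine tri_mem (D := 9805) (by norm_num) h1 h2 h3 ?_ ?_ ?_ <;>
  · simp only [V4.ev]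
    push_cast
    ring

theorem volT19 : volume (tri ((0 : ℝ), (-7 / 1920 : ℝ)) ((37 / 960 : ℝ), (-103 / 640 : ℝ)) ((37 / 960 : ℝ), (-11 / 480 : ℝ))) = ENNReal.ofReal ((1961 / 368640 : ℝ) / 2) := by
  rw [volume_tri]
  congr 2
  rw [det2]
  norm_num [abs_of_pos]

theorem mem20 (x : E)
    (h : ∀ f ∈ forms 20, 0 ≤ f.ev (x 0) (x 1) (x 2) (1 - x 0 - x 1 - x 2)) :
    aff F9 G9 C9 x ∈ tri ((0 : ℝ), (7 / 1920 : ℝ)) ((37 / 960 : ℝ), (103 / 640 : ℝ)) ((0 : ℝ), (7 / 32 : ℝ)) := by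
  have h' : ∀ f ∈ [(⟨51060, -91020, -19980, 15540⟩ : V4), ⟨0, 396480, 0, 0⟩, ⟨-35779, -290179, 35261, -259⟩],
      0 ≤ f.ev (x 0) (x 1) (x 2) (1 - x 0 - x 1 - x 2) := h
  have h1 := h' _ (List.Mem.head _)
  have h2 := h' _ (List.Mem.tail _ (List.Mem.head _))
  have h3 := h' _ (List.Mem.tail _ (List.Mem.tail _ (List.Mem.head _)))
  rw [aff9]
  refine tri_mem (D := 15281) (by norm_num) h1 h2 h3 ?_ ?_ ?_ <;>
  · simp only [V4.ev]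
    push_cast
    ring

theorem volT20 : volume (tri ((0 : ℝ), (7 / 1920 : ℝ)) ((37 / 960 : ℝ), (103 / 640 : ℝ)) ((0 : ℝ), (7 / 32 : ℝ))) = ENNReal.ofReal ((15281 / 1843200 : ℝ) / 2) := by
  rw [volume_tri]
  congr 2
  rw [det2]
  norm_num [abs_of_pos]

theorem mem21 (x : E)
    (h : ∀ f ∈ forms 21, 0 ≤ f.ev (x 0) (x 1) (x 2) (1 - x 0 - x 1 - x 2)) :
    aff F9 G9 C9 x ∈ tri ((0 : ℝ), (7 / 1920 : ℝ)) ((37 / 960 : ℝ), (11 / 480 : ℝ)) ((37 / 960 : ℝ), (103 / 640 : ℝ)) := by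
  have h' : ∀ f ∈ [(⟨9805, -244595, 9805, 9805⟩ : V4), ⟨35779, 290179, -35261, 259⟩, ⟨-35779, -35779, 35261, -259⟩],
      0 ≤ f.ev (x 0) (x 1) (x 2) (1 - x 0 - x 1 - x 2) := h
  have h1 := h' _ (List.Mem.head _)
  have h2 := h' _ (List.Mem.tail _ (List.Mem.head _))
  have h3 := h' _ (List.Mem.tail _ (List.Mem.tail _ (List.Mem.head _)))
  rw [aff9]
  refine tri_mem (D := 9805) (by norm_num) h1 h2 h3 ?_ ?_ ?_ <;>
  · simp only [V4.ev]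
    push_cast
    ring

theorem volT21 : volume (tri ((0 : ℝ), (7 / 1920 : ℝ)) ((37 / 960 : ℝ), (11 / 480 : ℝ)) ((37 / 960 : ℝ), (103 / 640 : ℝ))) = ENNReal.ofReal ((1961 / 368640 : ℝ) / 2) := by
  rw [volume_tri]
  congr 2
  rw [det2]
  norm_num [abs_of_pos]

theorem mem22 (x : E)
    (h : ∀ f ∈ forms 22, 0 ≤ f.ev (x 0) (x 1) (x 2) (1 - x 0 - x 1 - x 2)) :
    aff F6 G6 C6 x ∈ tri ((37 / 960 : ℝ), (11 / 480 : ℝ)) ((113 / 1440 : ℝ), (697 / 5760 : ℝ)) ((37 / 960 : ℝ), (103 / 640 : ℝ)) := by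
  have h' : ∀ f ∈ [(⟨-35351, 8809, 30889, -13271⟩ : V4), ⟨146757, -5883, -5883, -5883⟩, ⟨-105311, 3169, -18911, 25249⟩],
      0 ≤ f.ev (x 0) (x 1) (x 2) (1 - x 0 - x 1 - x 2) := h
  have h1 := h' _ (List.Mem.head _)
  have h2 := h' _ (List.Mem.tail _ (List.Mem.head _))
  have h3 := h' _ (List.Mem.tail _ (List.Mem.tail _ (List.Mem.head _)))
  rw [aff6]
  refine tri_mem (D := 6095) (by norm_num) h1 h2 h3 ?_ ?_ ?_ <;>
  · simp only [V4.ev]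
    push_cast
    ring

theorem volT22 : volume (tri ((37 / 960 : ℝ), (11 / 480 : ℝ)) ((113 / 1440 : ℝ), (697 / 5760 : ℝ)) ((37 / 960 : ℝ), (103 / 640 : ℝ))) = ENNReal.ofReal ((1219 / 221184 : ℝ) / 2) := by
  rw [volume_tri]
  congr 2
  rw [det2]
  norm_num [abs_of_pos]

theorem mem23 (x : E)
    (h : ∀ f ∈ forms 23, 0 ≤ f.ev (x 0) (x 1) (x 2) (1 - x 0 - x 1 - x 2)) :
    aff F6 G6 C6 x ∈ tri ((37 / 960 : ℝ), (11 / 480 : ℝ)) ((113 / 1440 : ℝ), (247 / 5760 : ℝ)) ((113 / 1440 : ℝ), (697 / 5760 : ℝ)) := by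
  have h' : ∀ f ∈ [(⟨-79620, 6780, 6780, 6780⟩ : V4), ⟨105311, -3169, 18911, -25249⟩, ⟨-22241, -161, -22241, 21919⟩],
      0 ≤ f.ev (x 0) (x 1) (x 2) (1 - x 0 - x 1 - x 2) := h
  have h1 := h' _ (List.Mem.head _)
  have h2 := h' _ (List.Mem.tail _ (List.Mem.head _))
  have h3 := h' _ (List.Mem.tail _ (List.Mem.tail _ (List.Mem.head _)))
  rw [aff6]
  refine tri_mem (D := 3450) (by norm_num) h1 h2 h3 ?_ ?_ ?_ <;>
  · simp only [V4.ev]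
    push_cast
    ring

theorem volT23 : volume (tri ((37 / 960 : ℝ), (11 / 480 : ℝ)) ((113 / 1440 : ℝ), (247 / 5760 : ℝ)) ((113 / 1440 : ℝ), (697 / 5760 : ℝ))) = ENNReal.ofReal ((115 / 36864 : ℝ) / 2) := by
  rw [volume_tri]
  congr 2
  rw [det2]
  norm_num [abs_of_pos]

theorem mem24 (x : E)
    (h : ∀ f ∈ forms 24, 0 ≤ f.ev (x 0) (x 1) (x 2) (1 - x 0 - x 1 - x 2)) :
    aff F7 G7 C7 x ∈ tri ((37 / 960 : ℝ), (-11 / 480 : ℝ)) ((37 / 960 : ℝ), (-103 / 640 : ℝ)) ((113 / 1440 : ℝ), (-697 / 5760 : ℝ)) := by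
  have h' : ∀ f ∈ [(⟨8809, -13271, -35351, 30889⟩ : V4), ⟨3169, 25249, -105311, -18911⟩, ⟨-5883, -5883, 146757, -5883⟩],
      0 ≤ f.ev (x 0) (x 1) (x 2) (1 - x 0 - x 1 - x 2) := h
  have h1 := h' _ (List.Mem.head _)
  have h2 := h' _ (List.Mem.tail _ (List.Mem.head _))
  have h3 := h' _ (List.Mem.tail _ (List.Mem.tail _ (List.Mem.head _)))
  rw [aff7]
  refine tri_mem (D := 6095) (by norm_num) h1 h2 h3 ?_ ?_ ?_ <;>
  · simp only [V4.ev]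
    push_cast
    ring

theorem volT24 : volume (tri ((37 / 960 : ℝ), (-11 / 480 : ℝ)) ((37 / 960 : ℝ), (-103 / 640 : ℝ)) ((113 / 1440 : ℝ), (-697 / 5760 : ℝ))) = ENNReal.ofReal ((1219 / 221184 : ℝ) / 2) := by
  rw [volume_tri]
  congr 2
  rw [det2]
  norm_num [abs_of_pos]

theorem mem25 (x : E)
    (h : ∀ f ∈ forms 25, 0 ≤ f.ev (x 0) (x 1) (x 2) (1 - x 0 - x 1 - x 2)) :
    aff F7 G7 C7 x ∈ tri ((37 / 960 : ℝ), (-11 / 480 : ℝ)) ((113 / 1440 : ℝ), (-697 / 5760 : ℝ)) ((113 / 1440 : ℝ), (-247 / 5760 : ℝ)) := by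
  have h' : ∀ f ∈ [(⟨6780, 6780, -79620, 6780⟩ : V4), ⟨-161, 21919, -22241, -22241⟩, ⟨-3169, -25249, 105311, 18911⟩],
      0 ≤ f.ev (x 0) (x 1) (x 2) (1 - x 0 - x 1 - x 2) := h
  have h1 := h' _ (List.Mem.head _)
  have h2 := h' _ (List.Mem.tail _ (List.Mem.head _))
  have h3 := h' _ (List.Mem.tail _ (List.Mem.tail _ (List.Mem.head _)))
  rw [aff7]
  refine tri_mem (D := 3450) (by norm_num) h1 h2 h3 ?_ ?_ ?_ <;>
  · simp only [V4.ev]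
    push_cast
    ring

theorem volT25 : volume (tri ((37 / 960 : ℝ), (-11 / 480 : ℝ)) ((113 / 1440 : ℝ), (-697 / 5760 : ℝ)) ((113 / 1440 : ℝ), (-247 / 5760 : ℝ))) = ENNReal.ofReal ((115 / 36864 : ℝ) / 2) := by
  rw [volume_tri]
  congr 2
  rw [det2]
  norm_num [abs_of_pos]

theorem mem26 (x : E)
    (h : ∀ f ∈ forms 26, 0 ≤ f.ev (x 0) (x 1) (x 2) (1 - x 0 - x 1 - x 2)) :
    aff F8 G8 C8 x ∈ tri ((37 / 960 : ℝ), (-11 / 480 : ℝ)) ((37 / 960 : ℝ), (-103 / 640 : ℝ)) ((113 / 1440 : ℝ), (-697 / 5760 : ℝ)) := by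
  have h' : ∀ f ∈ [(⟨-13271, 30889, 8809, -35351⟩ : V4), ⟨25249, -18911, 3169, -105311⟩, ⟨-5883, -5883, -5883, 146757⟩],
      0 ≤ f.ev (x 0) (x 1) (x 2) (1 - x 0 - x 1 - x 2) := h
  have h1 := h' _ (List.Mem.head _)
  have h2 := h' _ (List.Mem.tail _ (List.Mem.head _))
  have h3 := h' _ (List.Mem.tail _ (List.Mem.tail _ (List.Mem.head _)))
  rw [aff8]
  refine tri_mem (D := 6095) (by norm_num) h1 h2 h3 ?_ ?_ ?_ <;>
  · simp only [V4.ev]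
    push_cast
    ring

theorem volT26 : volume (tri ((37 / 960 : ℝ), (-11 / 480 : ℝ)) ((37 / 960 : ℝ), (-103 / 640 : ℝ)) ((113 / 1440 : ℝ), (-697 / 5760 : ℝ))) = ENNReal.ofReal ((1219 / 221184 : ℝ) / 2) := by
  rw [volume_tri]
  congr 2
  rw [det2]
  norm_num [abs_of_pos]

theorem mem27 (x : E)
    (h : ∀ f ∈ forms 27, 0 ≤ f.ev (x 0) (x 1) (x 2) (1 - x 0 - x 1 - x 2)) :
    aff F8 G8 C8 x ∈ tri ((37 / 960 : ℝ), (-11 / 480 : ℝ)) ((113 / 1440 : ℝ), (-697 / 5760 : ℝ)) ((113 / 1440 : ℝ), (-247 / 5760 : ℝ)) := by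
  have h' : ∀ f ∈ [(⟨6780, 6780, 6780, -79620⟩ : V4), ⟨21919, -22241, -161, -22241⟩, ⟨-25249, 18911, -3169, 105311⟩],
      0 ≤ f.ev (x 0) (x 1) (x 2) (1 - x 0 - x 1 - x 2) := h
  have h1 := h' _ (List.Mem.head _)
  have h2 := h' _ (List.Mem.tail _ (List.Mem.head _))
  have h3 := h' _ (List.Mem.tail _ (List.Mem.tail _ (List.Mem.head _)))
  rw [aff8]
  refine tri_mem (D := 3450) (by norm_num) h1 h2 h3 ?_ ?_ ?_ <;>
  · simp only [V4.ev]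
    push_cast
    ring

theorem volT27 : volume (tri ((37 / 960 : ℝ), (-11 / 480 : ℝ)) ((113 / 1440 : ℝ), (-697 / 5760 : ℝ)) ((113 / 1440 : ℝ), (-247 / 5760 : ℝ))) = ENNReal.ofReal ((115 / 36864 : ℝ) / 2) := by
  rw [volume_tri]
  congr 2
  rw [det2]
  norm_num [abs_of_pos]

theorem mem28 (x : E)
    (h : ∀ f ∈ forms 28, 0 ≤ f.ev (x 0) (x 1) (x 2) (1 - x 0 - x 1 - x 2)) :
    aff F9 G9 C9 x ∈ tri ((37 / 960 : ℝ), (11 / 480 : ℝ)) ((113 / 1440 : ℝ), (697 / 5760 : ℝ)) ((37 / 960 : ℝ), (103 / 640 : ℝ)) := by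
  have h' : ∀ f ∈ [(⟨30889, -35351, -13271, 8809⟩ : V4), ⟨-5883, 146757, -5883, -5883⟩, ⟨-18911, -105311, 25249, 3169⟩],
      0 ≤ f.ev (x 0) (x 1) (x 2) (1 - x 0 - x 1 - x 2) := h
  have h1 := h' _ (List.Mem.head _)
  have h2 := h' _ (List.Mem.tail _ (List.Mem.head _))
  have h3 := h' _ (List.Mem.tail _ (List.Mem.tail _ (List.Mem.head _)))
  rw [aff9]
  refine tri_mem (D := 6095) (by norm_num) h1 h2 h3 ?_ ?_ ?_ <;>
  · simp only [V4.ev]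
    push_cast
    ring

theorem volT28 : volume (tri ((37 / 960 : ℝ), (11 / 480 : ℝ)) ((113 / 1440 : ℝ), (697 / 5760 : ℝ)) ((37 / 960 : ℝ), (103 / 640 : ℝ))) = ENNReal.ofReal ((1219 / 221184 : ℝ) / 2) := by
  rw [volume_tri]
  congr 2
  rw [det2]
  norm_num [abs_of_pos]

theorem mem29 (x : E)
    (h : ∀ f ∈ forms 29, 0 ≤ f.ev (x 0) (x 1) (x 2) (1 - x 0 - x 1 - x 2)) :
    aff F9 G9 C9 x ∈ tri ((37 / 960 : ℝ), (11 / 480 : ℝ)) ((113 / 1440 : ℝ), (247 / 5760 : ℝ)) ((113 / 1440 : ℝ), (697 / 5760 : ℝ)) := by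
  have h' : ∀ f ∈ [(⟨6780, -79620, 6780, 6780⟩ : V4), ⟨18911, 105311, -25249, -3169⟩, ⟨-22241, -22241, 21919, -161⟩],
      0 ≤ f.ev (x 0) (x 1) (x 2) (1 - x 0 - x 1 - x 2) := h
  have h1 := h' _ (List.Mem.head _)
  have h2 := h' _ (List.Mem.tail _ (List.Mem.head _))
  have h3 := h' _ (List.Mem.tail _ (List.Mem.tail _ (List.Mem.head _)))
  rw [aff9]
  refine tri_mem (D := 3450) (by norm_num) h1 h2 h3 ?_ ?_ ?_ <;>
  · simp only [V4.ev]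
    push_cast
    ring

theorem volT29 : volume (tri ((37 / 960 : ℝ), (11 / 480 : ℝ)) ((113 / 1440 : ℝ), (247 / 5760 : ℝ)) ((113 / 1440 : ℝ), (697 / 5760 : ℝ))) = ENNReal.ofReal ((115 / 36864 : ℝ) / 2) := by
  rw [volume_tri]
  congr 2
  rw [det2]
  norm_num [abs_of_pos]

theorem mem30 (x : E)
    (h : ∀ f ∈ forms 30, 0 ≤ f.ev (x 0) (x 1) (x 2) (1 - x 0 - x 1 - x 2)) :
    aff F6 G6 C6 x ∈ tri ((113 / 1440 : ℝ), (247 / 5760 : ℝ)) ((263 / 1440 : ℝ), (547 / 5760 : ℝ)) ((113 / 1440 : ℝ), (697 / 5760 : ℝ)) := by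
  have h' : ∀ f ∈ [(⟨-210, 270, 1230, -690⟩ : V4), ⟨1327, -113, -113, -113⟩, ⟨-967, -7, -967, 953⟩],
      0 ≤ f.ev (x 0) (x 1) (x 2) (1 - x 0 - x 1 - x 2) := h
  have h1 := h' _ (List.Mem.head _)
  have h2 := h' _ (List.Mem.tail _ (List.Mem.head _))
  have h3 := h' _ (List.Mem.tail _ (List.Mem.tail _ (List.Mem.head _)))
  rw [aff6]
  refine tri_mem (D := 150) (by norm_num) h1 h2 h3 ?_ ?_ ?_ <;>
  · simp only [V4.ev]
    push_cast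
    ring

theorem volT30 : volume (tri ((113 / 1440 : ℝ), (247 / 5760 : ℝ)) ((263 / 1440 : ℝ), (547 / 5760 : ℝ)) ((113 / 1440 : ℝ), (697 / 5760 : ℝ))) = ENNReal.ofReal ((25 / 3072 : ℝ) / 2) := by
  rw [volume_tri]
  congr 2
  rw [det2]
  norm_num [abs_of_pos]

theorem mem31 (x : E)
    (h : ∀ f ∈ forms 31, 0 ≤ f.ev (x 0) (x 1) (x 2) (1 - x 0 - x 1 - x 2)) :
    aff F7 G7 C7 x ∈ tri ((113 / 1440 : ℝ), (-247 / 5760 : ℝ)) ((113 / 1440 : ℝ), (-697 / 5760 : ℝ)) ((263 / 1440 : ℝ), (-547 / 5760 : ℝ)) := by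
  have h' : ∀ f ∈ [(⟨270, -690, -210, 1230⟩ : V4), ⟨-7, 953, -967, -967⟩, ⟨-113, -113, 1327, -113⟩],
      0 ≤ f.ev (x 0) (x 1) (x 2) (1 - x 0 - x 1 - x 2) := h
  have h1 := h' _ (List.Mem.head _)
  have h2 := h' _ (List.Mem.tail _ (List.Mem.head _))
  have h3 := h' _ (List.Mem.tail _ (List.Mem.tail _ (List.Mem.head _)))
  rw [aff7]
  refine tri_mem (D := 150) (by norm_num) h1 h2 h3 ?_ ?_ ?_ <;>
  · simp only [V4.ev]
    push_cast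
    ring

theorem volT31 : volume (tri ((113 / 1440 : ℝ), (-247 / 5760 : ℝ)) ((113 / 1440 : ℝ), (-697 / 5760 : ℝ)) ((263 / 1440 : ℝ), (-547 / 5760 : ℝ))) = ENNReal.ofReal ((25 / 3072 : ℝ) / 2) := by
  rw [volume_tri]
  congr 2
  rw [det2]
  norm_num [abs_of_pos]

theorem mem32 (x : E)
    (h : ∀ f ∈ forms 32, 0 ≤ f.ev (x 0) (x 1) (x 2) (1 - x 0 - x 1 - x 2)) :
    aff F8 G8 C8 x ∈ tri ((113 / 1440 : ℝ), (-247 / 5760 : ℝ)) ((113 / 1440 : ℝ), (-697 / 5760 : ℝ)) ((263 / 1440 : ℝ), (-547 / 5760 : ℝ)) := by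
  have h' : ∀ f ∈ [(⟨-690, 1230, 270, -210⟩ : V4), ⟨953, -967, -7, -967⟩, ⟨-113, -113, -113, 1327⟩],
      0 ≤ f.ev (x 0) (x 1) (x 2) (1 - x 0 - x 1 - x 2) := h
  have h1 := h' _ (List.Mem.head _)
  have h2 := h' _ (List.Mem.tail _ (List.Mem.head _))
  have h3 := h' _ (List.Mem.tail _ (List.Mem.tail _ (List.Mem.head _)))
  rw [aff8]
  refine tri_mem (D := 150) (by norm_num) h1 h2 h3 ?_ ?_ ?_ <;>
  · simp only [V4.ev]
    push_cast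
    ring

theorem volT32 : volume (tri ((113 / 1440 : ℝ), (-247 / 5760 : ℝ)) ((113 / 1440 : ℝ), (-697 / 5760 : ℝ)) ((263 / 1440 : ℝ), (-547 / 5760 : ℝ))) = ENNReal.ofReal ((25 / 3072 : ℝ) / 2) := by
  rw [volume_tri]
  congr 2
  rw [det2]
  norm_num [abs_of_pos]

theorem mem33 (x : E)
    (h : ∀ f ∈ forms 33, 0 ≤ f.ev (x 0) (x 1) (x 2) (1 - x 0 - x 1 - x 2)) :
    aff F9 G9 C9 x ∈ tri ((113 / 1440 : ℝ), (247 / 5760 : ℝ)) ((263 / 1440 : ℝ), (547 / 5760 : ℝ)) ((113 / 1440 : ℝ), (697 / 5760 : ℝ)) := by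
  have h' : ∀ f ∈ [(⟨1230, -210, -690, 270⟩ : V4), ⟨-113, 1327, -113, -113⟩, ⟨-967, -967, 953, -7⟩],
      0 ≤ f.ev (x 0) (x 1) (x 2) (1 - x 0 - x 1 - x 2) := h
  have h1 := h' _ (List.Mem.head _)
  have h2 := h' _ (List.Mem.tail _ (List.Mem.head _))
  have h3 := h' _ (List.Mem.tail _ (List.Mem.tail _ (List.Mem.head _)))
  rw [aff9]
  refine tri_mem (D := 150) (by norm_num) h1 h2 h3 ?_ ?_ ?_ <;>
  · simp only [V4.ev]
    push_cast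
    ring

theorem volT33 : volume (tri ((113 / 1440 : ℝ), (247 / 5760 : ℝ)) ((263 / 1440 : ℝ), (547 / 5760 : ℝ)) ((113 / 1440 : ℝ), (697 / 5760 : ℝ))) = ENNReal.ofReal ((25 / 3072 : ℝ) / 2) := by
  rw [volume_tri]
  congr 2
  rw [det2]
  norm_num [abs_of_pos]

theorem mem34 (x : E)
    (h : ∀ f ∈ forms 34, 0 ≤ f.ev (x 0) (x 1) (x 2) (1 - x 0 - x 1 - x 2)) :
    aff F6 G6 C6 x ∈ tri ((3 / 32 : ℝ), (97 / 1920 : ℝ)) ((143 / 960 : ℝ), (97 / 1920 : ℝ)) ((143 / 960 : ℝ), (5 / 64 : ℝ)) := by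
  have h' : ∀ f ∈ [(⟨-43301, 7579, 7579, 7579⟩ : V4), ⟨51251, 371, 51251, -50509⟩, ⟨-5141, -5141, -56021, 45739⟩],
      0 ≤ f.ev (x 0) (x 1) (x 2) (1 - x 0 - x 1 - x 2) := h
  have h1 := h' _ (List.Mem.head _)
  have h2 := h' _ (List.Mem.tail _ (List.Mem.head _))
  have h3 := h' _ (List.Mem.tail _ (List.Mem.tail _ (List.Mem.head _)))
  rw [aff6]
  refine tri_mem (D := 2809) (by norm_num) h1 h2 h3 ?_ ?_ ?_ <;>
  · simp only [V4.ev]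
    push_cast
    ring

theorem volT34 : volume (tri ((3 / 32 : ℝ), (97 / 1920 : ℝ)) ((143 / 960 : ℝ), (97 / 1920 : ℝ)) ((143 / 960 : ℝ), (5 / 64 : ℝ))) = ENNReal.ofReal ((2809 / 1843200 : ℝ) / 2) := by
  rw [volume_tri]
  congr 2
  rw [det2]
  norm_num [abs_of_pos]

theorem mem35 (x : E)
    (h : ∀ f ∈ forms 35, 0 ≤ f.ev (x 0) (x 1) (x 2) (1 - x 0 - x 1 - x 2)) :
    aff F7 G7 C7 x ∈ tri ((3 / 32 : ℝ), (-97 / 1920 : ℝ)) ((143 / 960 : ℝ), (-5 / 64 : ℝ)) ((143 / 960 : ℝ), (-97 / 1920 : ℝ)) := by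
  have h' : ∀ f ∈ [(⟨7579, 7579, -43301, 7579⟩ : V4), ⟨-5141, 45739, -5141, -56021⟩, ⟨371, -50509, 51251, 51251⟩],
      0 ≤ f.ev (x 0) (x 1) (x 2) (1 - x 0 - x 1 - x 2) := h
  have h1 := h' _ (List.Mem.head _)
  have h2 := h' _ (List.Mem.tail _ (List.Mem.head _))
  have h3 := h' _ (List.Mem.tail _ (List.Mem.tail _ (List.Mem.head _)))
  rw [aff7]
  refine tri_mem (D := 2809) (by norm_num) h1 h2 h3 ?_ ?_ ?_ <;>
  · simp only [V4.ev]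
    push_cast
    ring

theorem volT35 : volume (tri ((3 / 32 : ℝ), (-97 / 1920 : ℝ)) ((143 / 960 : ℝ), (-5 / 64 : ℝ)) ((143 / 960 : ℝ), (-97 / 1920 : ℝ))) = ENNReal.ofReal ((2809 / 1843200 : ℝ) / 2) := by
  rw [volume_tri]
  congr 2
  rw [det2]
  norm_num [abs_of_pos]

theorem mem36 (x : E)
    (h : ∀ f ∈ forms 36, 0 ≤ f.ev (x 0) (x 1) (x 2) (1 - x 0 - x 1 - x 2)) :
    aff F8 G8 C8 x ∈ tri ((3 / 32 : ℝ), (-97 / 1920 : ℝ)) ((143 / 960 : ℝ), (-5 / 64 : ℝ)) ((143 / 960 : ℝ), (-97 / 1920 : ℝ)) := by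
  have h' : ∀ f ∈ [(⟨7579, 7579, 7579, -43301⟩ : V4), ⟨45739, -56021, -5141, -5141⟩, ⟨-50509, 51251, 371, 51251⟩],
      0 ≤ f.ev (x 0) (x 1) (x 2) (1 - x 0 - x 1 - x 2) := h
  have h1 := h' _ (List.Mem.head _)
  have h2 := h' _ (List.Mem.tail _ (List.Mem.head _))
  have h3 := h' _ (List.Mem.tail _ (List.Mem.tail _ (List.Mem.head _)))
  rw [aff8]
  refine tri_mem (D := 2809) (by norm_num) h1 h2 h3 ?_ ?_ ?_ <;>
  · simp only [V4.ev]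
    push_cast
    ring

theorem volT36 : volume (tri ((3 / 32 : ℝ), (-97 / 1920 : ℝ)) ((143 / 960 : ℝ), (-5 / 64 : ℝ)) ((143 / 960 : ℝ), (-97 / 1920 : ℝ))) = ENNReal.ofReal ((2809 / 1843200 : ℝ) / 2) := by
  rw [volume_tri]
  congr 2
  rw [det2]
  norm_num [abs_of_pos]

theorem mem37 (x : E)
    (h : ∀ f ∈ forms 37, 0 ≤ f.ev (x 0) (x 1) (x 2) (1 - x 0 - x 1 - x 2)) :
    aff F9 G9 C9 x ∈ tri ((3 / 32 : ℝ), (97 / 1920 : ℝ)) ((143 / 960 : ℝ), (97 / 1920 : ℝ)) ((143 / 960 : ℝ), (5 / 64 : ℝ)) := by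
  have h' : ∀ f ∈ [(⟨7579, -43301, 7579, 7579⟩ : V4), ⟨51251, 51251, -50509, 371⟩, ⟨-56021, -5141, 45739, -5141⟩],
      0 ≤ f.ev (x 0) (x 1) (x 2) (1 - x 0 - x 1 - x 2) := h
  have h1 := h' _ (List.Mem.head _)
  have h2 := h' _ (List.Mem.tail _ (List.Mem.head _))
  have h3 := h' _ (List.Mem.tail _ (List.Mem.tail _ (List.Mem.head _)))
  rw [aff9]
  refine tri_mem (D := 2809) (by norm_num) h1 h2 h3 ?_ ?_ ?_ <;>
  · simp only [V4.ev]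
    push_cast
    ring

theorem volT37 : volume (tri ((3 / 32 : ℝ), (97 / 1920 : ℝ)) ((143 / 960 : ℝ), (97 / 1920 : ℝ)) ((143 / 960 : ℝ), (5 / 64 : ℝ))) = ENNReal.ofReal ((2809 / 1843200 : ℝ) / 2) := by
  rw [volume_tri]
  congr 2
  rw [det2]
  norm_num [abs_of_pos]

/-- Relative areas of the cylinders. -/
noncomputable def dd : Fin 38 → ℝ := ![(1681 / 25600 : ℝ), (1681 / 25600 : ℝ), (8633 / 230400 : ℝ), (8827 / 172800 : ℝ), (8633 / 230400 : ℝ), (8827 / 172800 : ℝ), (97 / 23040 : ℝ), (59 / 7680 : ℝ), (97 / 23040 : ℝ), (59 / 7680 : ℝ), (13 / 5760 : ℝ), (1261 / 184320 : ℝ), (13 / 5760 : ℝ), (1261 / 184320 : ℝ), (15281 / 1843200 : ℝ), (1961 / 368640 : ℝ), (15281 / 1843200 : ℝ), (1961 / 368640 : ℝ), (15281 / 1843200 : ℝ), (1961 / 368640 : ℝ), (15281 / 1843200 : ℝ), (1961 / 368640 : ℝ), (1219 / 221184 : ℝ), (115 / 36864 : ℝ), (1219 / 221184 : ℝ), (115 / 36864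 : ℝ), (1219 / 221184 : ℝ), (115 / 36864 : ℝ), (1219 / 221184 : ℝ), (115 / 36864 : ℝ), (25 / 3072 : ℝ), (25 / 3072 : ℝ), (25 / 3072 : ℝ), (25 / 3072 : ℝ), (2809 / 1843200 : ℝ), (2809 / 1843200 : ℝ), (2809 / 1843200 : ℝ), (2809 / 1843200 : ℝ)]

theorem dd_sum : ∑ j, dd j = 660821 / 1382400 := by
  simp [dd, Fin.sum_univ_succ]
  norm_num

theorem dd_nonneg (j : Fin 38) : 0 ≤ dd j := by
  fin_cases j <;> simp [dd] <;> norm_num

theorem tri_data (j : Fin 38) : ∃ (f g : E) (c : ℝ × ℝ) (T : Set (ℝ × ℝ)),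
    LinearIndependent ℝ ![f, g] ∧ MeasurableSet T ∧
    volume T / volume (aff f g c '' K) ≤ ENNReal.ofReal (dd j) ∧
    ∀ x : E, (∀ φ ∈ forms j, 0 ≤ φ.ev (x 0) (x 1) (x 2) (1 - x 0 - x 1 - x 2)) → aff f g c x ∈ T := by
  fin_cases j
  · exact ⟨F0, G0, C0, _, li0, measurableSet_tri _ _ _,
      ratio_le (d := dd (0 : Fin 38)) (by simpa [dd] using volT0) half0, mem0⟩
  · exact ⟨F1, G1, C1, _, li1, measurableSet_tri _ _ _,
      ratio_le (d := dd (1 : Fin 38)) (by simpa [dd] using volT1) half1, mem1⟩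
  · exact ⟨F2, G2, C2, _, li2, measurableSet_tri _ _ _,
      ratio_le (d := dd (2 : Fin 38)) (by simpa [dd] using volT2) half2, mem2⟩
  · exact ⟨F2, G2, C2, _, li2, measurableSet_tri _ _ _,
      ratio_le (d := dd (3 : Fin 38)) (by simpa [dd] using volT3) half2, mem3⟩
  · exact ⟨F3, G3, C3, _, li3, measurableSet_tri _ _ _,
      ratio_le (d := dd (4 : Fin 38)) (by simpa [dd] using volT4) half3, mem4⟩
  · exact ⟨F3, G3, C3, _, li3, measurableSet_tri _ _ _,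
      ratio_le (d := dd (5 : Fin 38)) (by simpa [dd] using volT5) half3, mem5⟩
  · exact ⟨F4, G4, C4, _, li4, measurableSet_tri _ _ _,
      ratio_le (d := dd (6 : Fin 38)) (by simpa [dd] using volT6) half4, mem6⟩
  · exact ⟨F4, G4, C4, _, li4, measurableSet_tri _ _ _,
      ratio_le (d := dd (7 : Fin 38)) (by simpa [dd] using volT7) half4, mem7⟩
  · exact ⟨F5, G5, C5, _, li5, measurableSet_tri _ _ _,
      ratio_le (d := dd (8 : Fin 38)) (by simpa [dd] using volT8) half5, mem8⟩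
  · exact ⟨F5, G5, C5, _, li5, measurableSet_tri _ _ _,
      ratio_le (d := dd (9 : Fin 38)) (by simpa [dd] using volT9) half5, mem9⟩
  · exact ⟨F4, G4, C4, _, li4, measurableSet_tri _ _ _,
      ratio_le (d := dd (10 : Fin 38)) (by simpa [dd] using volT10) half4, mem10⟩
  · exact ⟨F4, G4, C4, _, li4, measurableSet_tri _ _ _,
      ratio_le (d := dd (11 : Fin 38)) (by simpa [dd] using volT11) half4, mem11⟩
  · exact ⟨F5, G5, C5, _, li5, measurableSet_tri _ _ _,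
      ratio_le (d := dd (12 : Fin 38)) (by simpa [dd] using volT12) half5, mem12⟩
  · exact ⟨F5, G5, C5, _, li5, measurableSet_tri _ _ _,
      ratio_le (d := dd (13 : Fin 38)) (by simpa [dd] using volT13) half5, mem13⟩
  · exact ⟨F6, G6, C6, _, li6, measurableSet_tri _ _ _,
      ratio_le (d := dd (14 : Fin 38)) (by simpa [dd] using volT14) half6, mem14⟩
  · exact ⟨F6, G6, C6, _, li6, measurableSet_tri _ _ _,
      ratio_le (d := dd (15 : Fin 38)) (by simpa [dd] using volT15) half6, mem15⟩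
  · exact ⟨F7, G7, C7, _, li7, measurableSet_tri _ _ _,
      ratio_le (d := dd (16 : Fin 38)) (by simpa [dd] using volT16) half7, mem16⟩
  · exact ⟨F7, G7, C7, _, li7, measurableSet_tri _ _ _,
      ratio_le (d := dd (17 : Fin 38)) (by simpa [dd] using volT17) half7, mem17⟩
  · exact ⟨F8, G8, C8, _, li8, measurableSet_tri _ _ _,
      ratio_le (d := dd (18 : Fin 38)) (by simpa [dd] using volT18) half8, mem18⟩
  · exact ⟨F8, G8, C8, _, li8, measurableSet_tri _ _ _,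
      ratio_le (d := dd (19 : Fin 38)) (by simpa [dd] using volT19) half8, mem19⟩
  · exact ⟨F9, G9, C9, _, li9, measurableSet_tri _ _ _,
      ratio_le (d := dd (20 : Fin 38)) (by simpa [dd] using volT20) half9, mem20⟩
  · exact ⟨F9, G9, C9, _, li9, measurableSet_tri _ _ _,
      ratio_le (d := dd (21 : Fin 38)) (by simpa [dd] using volT21) half9, mem21⟩
  · exact ⟨F6, G6, C6, _, li6, measurableSet_tri _ _ _,
      ratio_le (d := dd (22 : Fin 38)) (by simpa [dd] using volT22) half6, mem22⟩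
  · exact ⟨F6, G6, C6, _, li6, measurableSet_tri _ _ _,
      ratio_le (d := dd (23 : Fin 38)) (by simpa [dd] using volT23) half6, mem23⟩
  · exact ⟨F7, G7, C7, _, li7, measurableSet_tri _ _ _,
      ratio_le (d := dd (24 : Fin 38)) (by simpa [dd] using volT24) half7, mem24⟩
  · exact ⟨F7, G7, C7, _, li7, measurableSet_tri _ _ _,
      ratio_le (d := dd (25 : Fin 38)) (by simpa [dd] using volT25) half7, mem25⟩
  · exact ⟨F8, G8, C8, _, li8, measurableSet_tri _ _ _,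
      ratio_le (d := dd (26 : Fin 38)) (by simpa [dd] using volT26) half8, mem26⟩
  · exact ⟨F8, G8, C8, _, li8, measurableSet_tri _ _ _,
      ratio_le (d := dd (27 : Fin 38)) (by simpa [dd] using volT27) half8, mem27⟩
  · exact ⟨F9, G9, C9, _, li9, measurableSet_tri _ _ _,
      ratio_le (d := dd (28 : Fin 38)) (by simpa [dd] using volT28) half9, mem28⟩
  · exact ⟨F9, G9, C9, _, li9, measurableSet_tri _ _ _,
      ratio_le (d := dd (29 : Fin 38)) (by simpa [dd] using volT29) half9, mem29⟩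
  · exact ⟨F6, G6, C6, _, li6, measurableSet_tri _ _ _,
      ratio_le (d := dd (30 : Fin 38)) (by simpa [dd] using volT30) half6, mem30⟩
  · exact ⟨F7, G7, C7, _, li7, measurableSet_tri _ _ _,
      ratio_le (d := dd (31 : Fin 38)) (by simpa [dd] using volT31) half7, mem31⟩
  · exact ⟨F8, G8, C8, _, li8, measurableSet_tri _ _ _,
      ratio_le (d := dd (32 : Fin 38)) (by simpa [dd] using volT32) half8, mem32⟩
  · exact ⟨F9, G9, C9, _, li9, measurableSet_tri _ _ _,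
      ratio_le (d := dd (33 : Fin 38)) (by simpa [dd] using volT33) half9, mem33⟩
  · exact ⟨F6, G6, C6, _, li6, measurableSet_tri _ _ _,
      ratio_le (d := dd (34 : Fin 38)) (by simpa [dd] using volT34) half6, mem34⟩
  · exact ⟨F7, G7, C7, _, li7, measurableSet_tri _ _ _,
      ratio_le (d := dd (35 : Fin 38)) (by simpa [dd] using volT35) half7, mem35⟩
  · exact ⟨F8, G8, C8, _, li8, measurableSet_tri _ _ _,
      ratio_le (d := dd (36 : Fin 38)) (by simpa [dd] using volT36) half8, mem36⟩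
  · exact ⟨F9, G9, C9, _, li9, measurableSet_tri _ _ _,
      ratio_le (d := dd (37 : Fin 38)) (by simpa [dd] using volT37) half9, mem37⟩

/-- The explicit covering. -/
theorem main : ∃ (v w : Fin 38 → E) (B : Fin 38 → Set (ℝ × ℝ)),
    (∀ i, ‖v i‖ = 1) ∧ (∀ i, ‖w i‖ = 1) ∧ (∀ i, inner ℝ (v i) (w i) = (0 : ℝ)) ∧
    (∀ i, MeasurableSet (B i)) ∧ K ⊆ ⋃ i, planeCoord (v i) (w i) ⁻¹' B i ∧
    ∑ i, volume (B i) / volume (planeCoord (v i) (w i) '' K) ≤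
      ENNReal.ofReal (660821 / 1382400) := by
  have H : ∀ j : Fin 38, ∃ (v w : E) (B : Set (ℝ × ℝ)), ‖v‖ = 1 ∧ ‖w‖ = 1 ∧ inner ℝ v w = (0 : ℝ) ∧
      MeasurableSet B ∧
      (∀ x : E, (∀ φ ∈ forms j, 0 ≤ φ.ev (x 0) (x 1) (x 2) (1 - x 0 - x 1 - x 2)) →
        planeCoord v w x ∈ B) ∧
      volume B / volume (planeCoord v w '' K) ≤ ENNReal.ofReal (dd j) := by
    intro j
    obtain ⟨f, g, c, T, hli, hT, hr, hm⟩ := tri_data j
    obtain ⟨v, w, B, h1, h2, h3, hB, hpre, hvol⟩ := reduce f g c hli T hT K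
    refine ⟨v, w, B, h1, h2, h3, hB, ?_, by rw [hvol]; exact hr⟩
    intro x hx
    have : x ∈ planeCoord v w ⁻¹' B := by
      rw [hpre]
      exact hm x hx
    exact this
  choose v w B h1 h2 h3 hB hm hr using H
  refine ⟨v, w, B, h1, h2, h3, hB, ?_, ?_⟩
  · intro x hx
    obtain ⟨h0, h1', h2', h3'⟩ := hx
    have hw : 0 ≤ 1 - x 0 - x 1 - x 2 := by linarith
    obtain ⟨j, hj⟩ := cover h0 h1' h2' hw
    exact Set.mem_iUnion.mpr ⟨j, hm j x hj⟩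
  · calc ∑ i, volume (B i) / volume (planeCoord (v i) (w i) '' K)
        ≤ ∑ i, ENNReal.ofReal (dd i) := Finset.sum_le_sum fun i _ => hr i
      _ = ENNReal.ofReal (∑ i, dd i) :=
          (ENNReal.ofReal_sum_of_nonneg fun i _ => dd_nonneg i).symm
      _ = ENNReal.ofReal (660821 / 1382400) := by rw [dd_sum]

end Vale.Agent.P243D
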